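import Vale.Agent.P207.H832.T3.HolSys2

/-!
# P207, all dimensions: T3 over affine charts + stable holonomy of frames, variable time steps

As H832/T3/T3In3, with the times `th n x` instead of `n * T`. `F x ξ` = the leaf `ξ` in the
coordinate of the disc of `x`, read in the affine chart.

`a x : B ∖ {em x} → E` the affine chart of the leaf of the frame `x`, `ai x` its inverse,
`hol ξ x` the frame of the leaf `ξ` which is positively asymptotic to `x`, `D t x` the time-`t` map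
in the affine charts, `M x ξ` the derivative at the centre of (chart of `ξ` read on the disc of `x`,
then `a (hol ξ x)`), `t x ξ` the distance of the leaves, `Cl` the close pairs.
-/

namespace Vale.Agent.P207.H761.T3c

open Vale.Agent.P207.H832.T3 (HolSys2)

open Filter Topology Set Metric

/-- The input of T3. -/
structure T3In3 (X B E : Type*) [TopologicalSpace X] [TopologicalSpace B] [NormedAddCommGroup E]
    [NormedSpace ℝ E] where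
  φ : ℝ → X → X
  φ_zero : ∀ x, φ 0 x = x
  φ_add : ∀ s t x, φ (s + t) x = φ s (φ t x)
  φ_cont : Continuous fun p : ℝ × X => φ p.1 p.2
  flip : X → X
  flip_cont : Continuous flip
  flip_flip : ∀ x, flip (flip x) = x
  em : X → B
  em_cont : Continuous em
  em_φ : ∀ t x, em (φ t x) = em x
  ep : X → B
  ep_flip : ∀ x, ep x = em (flip x)
  ep_φ : ∀ t x, ep (φ t x) = ep x
  em_ne_ep : ∀ x, em x ≠ ep x
  hol : B → X → X
  hol_em : ∀ ξ x, ξ ≠ ep x → em (hol ξ x) = ξ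
  hol_ep : ∀ ξ x, ξ ≠ ep x → ep (hol ξ x) = ep x
  hol_φ : ∀ t ξ x, ξ ≠ ep x → hol ξ (φ t x) = φ t (hol ξ x)
  hol_cont : ContinuousOn (fun p : B × X => hol p.1 p.2) {p | p.1 ≠ ep p.2}
  /-- affine charts -/
  a : X → B → E
  ai : X → E → B
  ai_ne : ∀ x z, ai x z ≠ em x
  a_ai : ∀ x z, a x (ai x z) = z
  ai_a : ∀ x η, η ≠ em x → ai x (a x η) = η
  a_cont : ContinuousOn (fun p : X × B => a p.1 p.2) {p | p.2 ≠ em p.1}
  ai_cont : Continuous (fun p : X × E => ai p.1 p.2)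
  a_ep : ∀ x, a x (ep x) = 0
  a_aff : ∀ x y, em x = em y → ∃ (R : E ≃L[ℝ] E) (b : E), ∀ η, η ≠ em x → a y η = R (a x η) + b
  D : ℝ → X → E ≃L[ℝ] E
  a_φ : ∀ t x η, η ≠ em x → a (φ t x) η = D t x (a x η)
  /-- the time of the `n`-th step -/
  th : ℕ → X → ℝ
  th_zero : ∀ x, th 0 x = 0
  th_add : ∀ m n x, th (m + n) x = th m (φ (th n x) x) + th n x
  th_cont : ∀ n, Continuous (th n)
  /-- rates, per step -/
  lam : ℝ
  mu : ℝ
  lam_pos : 0 < lam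
  lam_lt : lam < 1
  mu_gt : 1 < mu
  /-- the rate of `t` -/
  lp : ℝ
  lp_pos : 0 < lp
  lp_le : lp ≤ 1
  pinch : lam * lp * mu < 1
  C : ℝ
  C_ge : 1 ≤ C
  D_le : ∀ n x v, ‖D (th n x) x v‖ ≤ C * mu ^ n * ‖v‖
  D_inv : ∀ n x v, ‖(D (th n x) x).symm v‖ ≤ C * lam ^ n * ‖v‖
  /-- close pairs -/
  Cl : Set (X × B)
  /-- rates of the second leaf, at the times of the first one -/
  D'_le : ∀ x ξ, (∀ n : ℕ, (φ (th n x) x, ξ) ∈ Cl) → ∀ n v,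
    ‖D (th n x) (hol ξ x) v‖ ≤ C * mu ^ n * ‖v‖
  D'_inv : ∀ x ξ, (∀ n : ℕ, (φ (th n x) x, ξ) ∈ Cl) → ∀ n v,
    ‖(D (th n x) (hol ξ x)).symm v‖ ≤ C * lam ^ n * ‖v‖
  t : X → B → ℝ
  t_nonneg : ∀ x ξ, 0 ≤ t x ξ
  t_bd : ∀ x ξ, (x, ξ) ∈ Cl → t x ξ ≤ C
  Cl_ne : ∀ x ξ, (x, ξ) ∈ Cl → ξ ≠ ep x
  Cl_far : ∀ x ξ, (x, ξ) ∈ Cl → ∀ w, ‖w‖ ≤ 1 → ai x w ≠ ξ
  /-- good pairs: they stay close in the future, also after a small translation -/
  G : Set (X × B)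
  ρ : ℝ
  ρ_pos : 0 < ρ
  /-- the frame at the point `u` of the leaf of `x` is `flip (hol (ai x u) (flip x))` -/
  G_cl : ∀ x ξ, (x, ξ) ∈ G → ∀ u, ‖u‖ < ρ → ∀ n : ℕ,
    (φ (th n (flip (hol (ai x u) (flip x)))) (flip (hol (ai x u) (flip x))), ξ) ∈ Cl
  t_iter : ∀ x ξ, (∀ n : ℕ, (φ (th n x) x, ξ) ∈ Cl) → ∀ n : ℕ,
    t (φ (th n x) x) ξ ≤ C * lp ^ n * t x ξ
  far : ∀ x ξ, ξ ≠ ep x → ∃ s : ℝ, (φ s x, ξ) ∈ G
  G_self : ∀ x ξ, (x, ξ) ∈ G → ∀ n : ℕ, (φ (th n x) x, ξ) ∈ Cl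
  /-- the normalisation -/
  M : X → B → E ≃L[ℝ] E
  M_le : ∀ x ξ, (x, ξ) ∈ Cl → ∀ v, ‖M x ξ v‖ ≤ C * ‖v‖
  M_inv : ∀ x ξ, (x, ξ) ∈ Cl → ∀ v, ‖(M x ξ).symm v‖ ≤ C * ‖v‖
  M_cont : ∀ ξ v, ContinuousOn (fun x => M x ξ v) {x | (x, ξ) ∈ Cl}
  Mi_cont : ∀ ξ v, ContinuousOn (fun x => (M x ξ).symm v) {x | (x, ξ) ∈ Cl}
  /-- the leaf `ξ` over the disc of `x` -/
  F : X → B → E → E
  /-- (F1) -/
  F1 : ∀ x ξ, (x, ξ) ∈ Cl → ∀ w, ‖w‖ ≤ 1 → ‖a (hol ξ x) (ai x w) - F x ξ w‖ ≤ C * t x ξ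
  /-- (F0) -/
  F0 : ∀ x ξ, (x, ξ) ∈ Cl → ∀ w, ‖w‖ ≤ 1 → ‖F x ξ w - F x ξ 0 - M x ξ w‖ ≤ C * ‖w‖ ^ 2
  /-- (F2) -/
  F2 : ∀ x ξ, (x, ξ) ∈ Cl → (φ (th 1 x) x, ξ) ∈ Cl → ∀ v,
    ‖(M (φ (th 1 x) x) ξ).symm (D (th 1 x) (hol ξ x) (M x ξ v)) - D (th 1 x) x v‖ ≤
      C * t x ξ * ‖v‖
  /-- (F3) -/
  F3 : ∀ x ξ, (x, ξ) ∈ Cl → (φ (th 1 x) x, ξ) ∈ Cl → ∀ w, ‖w‖ ≤ 1 → ‖D (th 1 x) x w‖ ≤ 1 →
    ‖((D (th 1 x) (hol ξ x)).symm (F (φ (th 1 x) x) ξ (D (th 1 x) x w)) - F x ξ w) -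
      ((D (th 1 x) (hol ξ x)).symm (F (φ (th 1 x) x) ξ 0) - F x ξ 0) -
      ((D (th 1 x) (hol ξ x)).symm (M (φ (th 1 x) x) ξ (D (th 1 x) x w)) - M x ξ w)‖ ≤
      C * t x ξ * ‖w‖ ^ 2

namespace T3In3

variable {X B E : Type*} [TopologicalSpace X] [TopologicalSpace B] [NormedAddCommGroup E]
    [NormedSpace ℝ E] (S : T3In3 X B E)

/-- the frame at the point `u` of the leaf of `x` -/
def tr (x : X) (u : E) : X := S.flip (S.hol (S.ai x u) (S.flip x))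

theorem ep_flip' (x : X) : S.ep (S.flip x) = S.em x := by
  rw [S.ep_flip, S.flip_flip]

theorem em_tr (x : X) (u : E) : S.em (S.tr x u) = S.em x := by
  have h : S.ai x u ≠ S.ep (S.flip x) := by rw [S.ep_flip']; exact S.ai_ne x u
  rw [tr, ← S.ep_flip, S.hol_ep _ _ h, S.ep_flip']

theorem ep_tr (x : X) (u : E) : S.ep (S.tr x u) = S.ai x u := by
  have h : S.ai x u ≠ S.ep (S.flip x) := by rw [S.ep_flip']; exact S.ai_ne x u
  rw [tr, S.ep_flip', S.hol_em _ _ h]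

theorem tr_cont (x : X) : Continuous (S.tr x) := by
  apply S.flip_cont.comp
  have h1 : Continuous fun u : E => (S.ai x u, S.flip x) :=
    (S.ai_cont.comp (Continuous.prodMk_right x)).prodMk continuous_const
  have h2 : ∀ u : E, (S.ai x u, S.flip x) ∈ {p : B × X | p.1 ≠ S.ep p.2} := by
    intro u
    simp only [mem_ofPred_eq]
    rw [S.ep_flip']; exact S.ai_ne x u
  exact S.hol_cont.comp_continuous h1 h2

open Classical in
/-- the linear part of the affine change -/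
noncomputable def Lin (x y : X) : E ≃L[ℝ] E :=
  if h : S.em x = S.em y then (S.a_aff x y h).choose else ContinuousLinearEquiv.refl ℝ E

theorem Lin_spec {x y : X} (h : S.em x = S.em y) {η η' : B} (h1 : η ≠ S.em x) (h2 : η' ≠ S.em x) :
    S.a y η - S.a y η' = S.Lin x y (S.a x η - S.a x η') := by
  obtain ⟨b, hb⟩ := (S.a_aff x y h).choose_spec
  rw [hb η h1, hb η' h2, Lin, dif_pos h]
  simp only [map_sub]
  abel

theorem Lin_apply {x y : X} (h : S.em x = S.em y) (v : E) :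
    S.Lin x y v = S.a y (S.ai x v) - S.a y (S.ai x 0) := by
  rw [S.Lin_spec h (S.ai_ne x _) (S.ai_ne x _), S.a_ai, S.a_ai, sub_zero]

theorem Lin_symm_apply {x y : X} (h : S.em x = S.em y) (v : E) :
    (S.Lin x y).symm v = S.a x (S.ai y v) - S.a x (S.ai y 0) := by
  rw [ContinuousLinearEquiv.symm_apply_eq]
  have h1 : S.ai y v ≠ S.em x := by rw [h]; exact S.ai_ne y v
  have h2 : S.ai y 0 ≠ S.em x := by rw [h]; exact S.ai_ne y 0
  rw [← S.Lin_spec h h1 h2, S.a_ai, S.a_ai, sub_zero]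

theorem D_apply (t : ℝ) (x : X) (v : E) : S.D t x v = S.a (S.φ t x) (S.ai x v) := by
  rw [S.a_φ _ _ _ (S.ai_ne x v), S.a_ai]

theorem ai_φ (t : ℝ) (x : X) (v : E) : S.ai (S.φ t x) (S.D t x v) = S.ai x v := by
  rw [S.D_apply, S.ai_a]
  rw [S.em_φ]; exact S.ai_ne x v

theorem D_symm_apply (t : ℝ) (x : X) (v : E) : (S.D t x).symm v = S.a x (S.ai (S.φ t x) v) := by
  rw [ContinuousLinearEquiv.symm_apply_eq, ← S.a_φ, S.a_ai]
  rw [← S.em_φ t x]; exact S.ai_ne _ v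

theorem D_zero (x : X) (v : E) : S.D 0 x v = v := by
  rw [S.D_apply, S.φ_zero, S.a_ai]

theorem D_add (s t : ℝ) (x : X) (v : E) : S.D (s + t) x v = S.D s (S.φ t x) (S.D t x v) := by
  rw [S.D_apply, S.D_apply s, S.ai_φ, S.φ_add]

/-- the step -/
def st (n : ℕ) (x : X) : X := S.φ (S.th n x) x

theorem st_zero (x : X) : S.st 0 x = x := by rw [st, S.th_zero, S.φ_zero]

theorem st_add (m n : ℕ) (x : X) : S.st (m + n) x = S.st m (S.st n x) := by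
  rw [st, S.th_add, S.φ_add]
  rfl

/-- the pairs which stay close -/
abbrev I : Type _ := {p : X × B // ∀ n : ℕ, (S.st n p.1, p.2) ∈ S.Cl}

/-- the next pair -/
def nx (p : S.I) : S.I := ⟨(S.st 1 p.1.1, p.1.2), fun n => by
  have := p.2 (n + 1)
  rwa [S.st_add] at this⟩

theorem nx_iter (n : ℕ) (p : S.I) :
    (S.nx^[n] p).1 = (S.st n p.1.1, p.1.2) := by
  induction n with
  | zero => simp [S.st_zero]
  | succ n ih =>
    rw [Function.iterate_succ_apply', nx]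
    simp only [ih]
    rw [← S.st_add, add_comm]

theorem mem_Cl (p : S.I) : (p.1.1, p.1.2) ∈ S.Cl := by
  have := p.2 0
  rwa [S.st_zero] at this

/-- the holonomy in the affine charts -/
noncomputable def H (p : S.I) (w : E) : E :=
  (S.M p.1.1 p.1.2).symm (S.a (S.hol p.1.2 p.1.1) (S.ai p.1.1 w))

/-- the products for the second leaf -/
noncomputable def P' (n : ℕ) (p : S.I) : E ≃L[ℝ] E :=
  (S.M p.1.1 p.1.2).trans ((S.D (S.th n p.1.1) (S.hol p.1.2 p.1.1)).trans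
    (S.M (S.st n p.1.1) p.1.2).symm)

theorem P'_apply (n : ℕ) (p : S.I) (v : E) : S.P' n p v =
    (S.M (S.st n p.1.1) p.1.2).symm
      (S.D (S.th n p.1.1) (S.hol p.1.2 p.1.1) (S.M p.1.1 p.1.2 v)) := rfl

theorem P'_symm_apply (n : ℕ) (p : S.I) (v : E) : (S.P' n p).symm v =
    (S.M p.1.1 p.1.2).symm ((S.D (S.th n p.1.1) (S.hol p.1.2 p.1.1)).symm
      (S.M (S.st n p.1.1) p.1.2 v)) := rfl

/-- the one step map of the second leaf -/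
noncomputable def A' (p : S.I) : E ≃L[ℝ] E :=
  (S.M p.1.1 p.1.2).trans ((S.D (S.th 1 p.1.1) (S.hol p.1.2 p.1.1)).trans
    (S.M (S.st 1 p.1.1) p.1.2).symm)

theorem A'_apply (p : S.I) (v : E) : S.A' p v = (S.M (S.st 1 p.1.1) p.1.2).symm
      (S.D (S.th 1 p.1.1) (S.hol p.1.2 p.1.1) (S.M p.1.1 p.1.2 v)) := rfl

/-- the change of the base point on the second leaf -/
noncomputable def R' (p : S.I) (u : E) : E ≃L[ℝ] E :=
  (S.M p.1.1 p.1.2).trans ((S.Lin (S.hol p.1.2 p.1.1) (S.hol p.1.2 (S.tr p.1.1 u))).trans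
    (S.M (S.tr p.1.1 u) p.1.2).symm)

theorem R'_apply (p : S.I) (u v : E) : S.R' p u v = (S.M (S.tr p.1.1 u) p.1.2).symm
    (S.Lin (S.hol p.1.2 p.1.1) (S.hol p.1.2 (S.tr p.1.1 u)) (S.M p.1.1 p.1.2 v)) := rfl

theorem R'_symm_apply (p : S.I) (u v : E) : (S.R' p u).symm v = (S.M p.1.1 p.1.2).symm
    ((S.Lin (S.hol p.1.2 p.1.1) (S.hol p.1.2 (S.tr p.1.1 u))).symm (S.M (S.tr p.1.1 u) p.1.2 v)) :=
  rfl

open Classical in
/-- the pair at the point `u` -/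
noncomputable def bc (p : S.I) (u : E) : S.I :=
  if h : (p.1.1, p.1.2) ∈ S.G ∧ ‖u‖ < S.ρ then
    ⟨(S.tr p.1.1 u, p.1.2), fun n => S.G_cl _ _ h.1 u h.2 n⟩ else p

theorem bc_val {p : S.I} (h : (p.1.1, p.1.2) ∈ S.G) {u : E} (hu : ‖u‖ < S.ρ) :
    (S.bc p u).1 = (S.tr p.1.1 u, p.1.2) := by
  unfold bc
  rw [dif_pos ⟨h, hu⟩]

theorem C3 : 1 ≤ S.C ^ 3 ∧ S.C ≤ S.C ^ 3 ∧ 0 ≤ S.C ∧ S.C ^ 2 ≤ S.C ^ 3 := by
  have := S.C_ge
  refine ⟨one_le_pow₀ this, ?_, by linarith, ?_⟩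
  · nlinarith [sq_nonneg (S.C - 1), sq_nonneg S.C]
  · exact pow_le_pow_right₀ this (by norm_num)

theorem tr_mem {x : X} {ξ : B} (h : (x, ξ) ∈ S.G) {u : E} (hu : ‖u‖ < S.ρ) :
    (S.tr x u, ξ) ∈ S.Cl := by
  have := S.G_cl _ _ h u hu 0
  rw [S.th_zero, S.φ_zero] at this
  exact this

theorem ai_ne_of_G {x : X} {ξ : B} (h : (x, ξ) ∈ S.G) {u : E} (hu : ‖u‖ < S.ρ) :
    S.ai x u ≠ ξ := by
  have := S.Cl_ne _ _ (S.tr_mem h hu)
  rw [S.ep_tr] at this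
  exact this.symm

theorem H_bc [T1Space B] {p : S.I} (h : (p.1.1, p.1.2) ∈ S.G) {u : E} (hu : ‖u‖ < S.ρ) :
    ∀ᶠ w in 𝓝 (0 : E), S.H (S.bc p u) (S.Lin p.1.1 (S.tr p.1.1 u) w) =
      S.R' p u (S.H p (u + w) - S.H p u) := by
  have hc : ContinuousAt (fun w : E => S.ai p.1.1 (u + w)) 0 := by
    have : Continuous (fun w : E => S.ai p.1.1 (u + w)) :=
      S.ai_cont.comp ((continuous_const).prodMk (continuous_const.add continuous_id))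
    exact this.continuousAt
  have hev : ∀ᶠ w in 𝓝 (0 : E), S.ai p.1.1 (u + w) ≠ p.1.2 := by
    have h1 : S.ai p.1.1 (u + 0) ≠ p.1.2 := by
      rw [add_zero]; exact S.ai_ne_of_G h hu
    exact hc.eventually (isOpen_ne.mem_nhds h1)
  filter_upwards [hev] with w hw
  have hx : p.1.2 ≠ S.ep p.1.1 := S.Cl_ne _ _ (S.mem_Cl p)
  have hy : p.1.2 ≠ S.ep (S.tr p.1.1 u) := S.Cl_ne _ _ (S.tr_mem h hu)
  have e0 : S.em p.1.1 = S.em (S.tr p.1.1 u) := (S.em_tr _ _).symm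
  have e1 : S.em (S.hol p.1.2 p.1.1) = S.em (S.hol p.1.2 (S.tr p.1.1 u)) := by
    rw [S.hol_em _ _ hx, S.hol_em _ _ hy]
  have hu0 : S.ai p.1.1 u ≠ p.1.2 := S.ai_ne_of_G h hu
  have e2 : S.Lin p.1.1 (S.tr p.1.1 u) w = S.a (S.tr p.1.1 u) (S.ai p.1.1 (u + w)) := by
    have h3 := S.Lin_spec e0 (S.ai_ne p.1.1 (u + w)) (S.ai_ne p.1.1 u)
    rw [S.a_ai, S.a_ai, add_sub_cancel_left] at h3
    have h4 : S.a (S.tr p.1.1 u) (S.ai p.1.1 u) = 0 := by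
      rw [← S.ep_tr p.1.1 u, S.a_ep]
    rw [← h3, h4, sub_zero]
  have e3 : S.ai (S.tr p.1.1 u) (S.a (S.tr p.1.1 u) (S.ai p.1.1 (u + w))) =
      S.ai p.1.1 (u + w) := by
    apply S.ai_a
    rw [S.em_tr]; exact S.ai_ne _ _
  rw [H, S.bc_val h hu]
  simp only
  rw [e2, e3, R'_apply]
  congr 1
  rw [map_sub, H, H, ContinuousLinearEquiv.apply_symm_apply, ContinuousLinearEquiv.apply_symm_apply,
    ← S.Lin_spec e1 (by rw [S.hol_em _ _ hx]; exact hw) (by rw [S.hol_em _ _ hx]; exact hu0)]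
  have e4 : S.a (S.hol p.1.2 (S.tr p.1.1 u)) (S.ai p.1.1 u) = 0 := by
    rw [← S.ep_tr p.1.1 u, ← S.hol_ep _ _ hy, S.a_ep]
  rw [e4, sub_zero]

end T3In3

end Vale.Agent.P207.H761.T3c
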